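import Vale.Agent.P207.N4.Dim
import Vale.Agent.P207.N4.Spec

/-!
# P207, line N4, R12 (abstract part): the orthogonal groups of `Rᵐ` and `Rᵐ⁺¹` and their matrices

* `mo a`: the orthogonal matrix of a linear isometry of `EuclideanSpace ℝ (Fin n)`.
* `ext a : O3` for `a : O2`: the map which is `a` on the last `m` coordinates.
-/

open Set Filter Topology
open scoped Matrix

noncomputable section

namespace Vale.Agent.P207.N4.H908

/-- the isometries of Euclidean space -/
abbrev OE (n : ℕ) : Type := EuclideanSpace ℝ (Fin n) ≃ₗᵢ[ℝ] EuclideanSpace ℝ (Fin n)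

section Mat

variable {n : ℕ}

/-- the matrix of an isometry -/
def mat (a : OE n) : Matrix (Fin n) (Fin n) ℝ := fun i j => a (EuclideanSpace.single j 1) i

theorem apply_eq (a : OE n) (v : EuclideanSpace ℝ (Fin n)) (i : Fin n) :
    a v i = ∑ j, mat a i j * v j := by
  have h1 : v = ∑ j, v j • EuclideanSpace.single j (1 : ℝ) := by
    ext k
    simp [Finset.sum_apply, Pi.single_apply]
  have h2 : a v = ∑ j, v j • a (EuclideanSpace.single j (1 : ℝ)) := by
    conv_lhs => rw [h1]
    simp only [map_sum, map_smul]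
  rw [h2]
  simp only [WithLp.ofLp_sum, WithLp.ofLp_smul, Finset.sum_apply, Pi.smul_apply, smul_eq_mul, mat]
  exact Finset.sum_congr rfl fun j _ => mul_comm _ _

theorem mat_one : mat (1 : OE n) = 1 := by
  ext i j
  simp only [mat, Matrix.one_apply]
  change (EuclideanSpace.single j (1 : ℝ)) i = _
  simp [Pi.single_apply]

theorem mat_mul (a b : OE n) : mat (a * b) = mat a * mat b := by
  ext i j
  rw [Matrix.mul_apply]
  change a (b (EuclideanSpace.single j 1)) i = _
  rw [apply_eq]
  rfl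

theorem mat_transpose_mul (a : OE n) : (mat a)ᵀ * mat a = 1 := by
  ext j k
  rw [Matrix.mul_apply, Matrix.one_apply]
  have h1 : inner ℝ (a (EuclideanSpace.single k (1 : ℝ))) (a (EuclideanSpace.single j (1 : ℝ))) =
      ∑ i, (mat a)ᵀ j i * mat a i k := by
    rw [PiLp.inner_apply]
    rfl
  rw [← h1, a.inner_map_map, EuclideanSpace.inner_single_left]
  simp only [map_one, one_mul, EuclideanSpace.single_apply, eq_comm]

/-- the orthogonal matrix of an isometry, as a homomorphism -/
def mo : OE n →* Matrix.orthogonalGroup (Fin n) ℝ where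
  toFun a := ⟨mat a, (Matrix.mem_orthogonalGroup_iff' (Fin n) ℝ).2 (mat_transpose_mul a)⟩
  map_one' := Subtype.ext mat_one
  map_mul' a b := Subtype.ext (mat_mul a b)

theorem mo_val (a : OE n) (i j : Fin n) : (mo a).1 i j = a (EuclideanSpace.single j 1) i := rfl

/-- `mo` is continuous for the topology of pointwise convergence -/
theorem continuous_mo {Y : Type} [TopologicalSpace Y] {R : Y → OE n}
    (hR : Continuous fun p : Y × EuclideanSpace ℝ (Fin n) => R p.1 p.2) :
    Continuous fun y => mo (R y) := by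
  refine Continuous.subtype_mk (continuous_matrix fun i j => ?_) _
  have h1 : Continuous fun y => R y (EuclideanSpace.single j (1 : ℝ)) :=
    hR.comp (Continuous.prodMk_left _)
  exact (EuclideanSpace.proj i).continuous.comp h1

theorem mo_injective : Function.Injective (mo : OE n → _) := by
  intro a b h
  ext v i
  rw [apply_eq, apply_eq]
  have h2 : mat a = mat b := congrArg Subtype.val h
  rw [h2]

/-- every orthogonal matrix is the matrix of an isometry -/
theorem mo_surjective : Function.Surjective (mo : OE n → _) := by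
  intro A
  have h1 : (A.1)ᵀ * A.1 = 1 := (Matrix.mem_orthogonalGroup_iff' (Fin n) ℝ).1 A.2
  have h2 : A.1 * (A.1)ᵀ = 1 := (Matrix.mem_orthogonalGroup_iff (Fin n) ℝ).1 A.2
  let L : (Fin n → ℝ) ≃ₗ[ℝ] (Fin n → ℝ) :=
    { toFun := fun v => A.1 *ᵥ v
      invFun := fun v => (A.1)ᵀ *ᵥ v
      map_add' := fun v w => Matrix.mulVec_add _ _ _
      map_smul' := fun c v => Matrix.mulVec_smul _ _ _
      left_inv := fun v => by
        change (A.1)ᵀ *ᵥ (A.1 *ᵥ v) = v
        rw [Matrix.mulVec_mulVec, h1, Matrix.one_mulVec]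
      right_inv := fun v => by
        change A.1 *ᵥ ((A.1)ᵀ *ᵥ v) = v
        rw [Matrix.mulVec_mulVec, h2, Matrix.one_mulVec] }
  let L' : EuclideanSpace ℝ (Fin n) ≃ₗ[ℝ] EuclideanSpace ℝ (Fin n) :=
    (WithLp.linearEquiv 2 ℝ (Fin n → ℝ)).trans (L.trans (WithLp.linearEquiv 2 ℝ (Fin n → ℝ)).symm)
  have hL : ∀ v i, L' v i = (A.1 *ᵥ v.ofLp) i := fun v i => rfl
  have hn : ∀ v, ‖L' v‖ = ‖v‖ := by
    intro v
    rw [EuclideanSpace.norm_eq, EuclideanSpace.norm_eq]
    congr 1
    simp only [hL, Real.norm_eq_abs, sq_abs]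
    have h3 : ∀ w : Fin n → ℝ, ∑ i, w i ^ 2 = w ⬝ᵥ w := fun w => by
      simp only [dotProduct, sq]
    rw [h3, h3, Matrix.dotProduct_mulVec, Matrix.vecMul_mulVec, h1, Matrix.vecMul_one]
  refine ⟨⟨L', hn⟩, Subtype.ext (Matrix.ext fun i j => ?_)⟩
  change L' (EuclideanSpace.single j 1) i = _
  rw [hL]
  simp [Matrix.mulVec, dotProduct, Pi.single_apply]

end Mat

/-! ### the extension `O2 → O3` -/

variable [Dim]

/-- the last `m` coordinates -/
def tl (v : E3) : E2 := WithLp.toLp 2 fun i => v i.succ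

/-- first coordinate and the last `m` -/
def cs (t : ℝ) (u : E2) : E3 := WithLp.toLp 2 (Fin.cons t u)

@[simp] theorem tl_apply (v : E3) (i : Fin Dim.m) : tl v i = v i.succ := rfl

@[simp] theorem cs_succ (t : ℝ) (u : E2) (i : Fin Dim.m) : cs t u i.succ = u i := rfl

@[simp] theorem tl_cs (t : ℝ) (u : E2) : tl (cs t u) = u := rfl

@[simp] theorem cs_zero (t : ℝ) (u : E2) : cs t u 0 = t := rfl

theorem cs_tl (v : E3) : cs (v 0) (tl v) = v := by
  ext i
  exact Fin.cases rfl (fun _ => rfl) i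

theorem norm_cs_sq (t : ℝ) (u : E2) : ‖cs t u‖ ^ 2 = t ^ 2 + ‖u‖ ^ 2 := by
  rw [EuclideanSpace.norm_sq_eq, EuclideanSpace.norm_sq_eq, Fin.sum_univ_succ]
  simp only [cs_zero, cs_succ, Real.norm_eq_abs, sq_abs]

theorem tl_add (v w : E3) : tl (v + w) = tl v + tl w := rfl

theorem tl_smul (c : ℝ) (v : E3) : tl (c • v) = c • tl v := rfl

theorem cs_add (s t : ℝ) (u w : E2) : cs (s + t) (u + w) = cs s u + cs t w := by
  ext i
  exact Fin.cases rfl (fun _ => rfl) i

theorem cs_smul (c t : ℝ) (u : E2) : cs (c * t) (c • u) = c • cs t u := by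
  ext i
  exact Fin.cases rfl (fun _ => rfl) i

/-- the isometry of the space which is `a` on the last coordinates -/
def ext (a : O2) : O3 where
  toFun v := cs (v 0) (a (tl v))
  invFun v := cs (v 0) (a.symm (tl v))
  map_add' v w := by
    rw [tl_add, map_add, ← cs_add]
    rfl
  map_smul' c v := by
    rw [tl_smul, map_smul]
    exact cs_smul c (v 0) (a (tl v))
  left_inv v := by simp [cs_tl]
  right_inv v := by simp [cs_tl]
  norm_map' v := by
    have h1 : ‖cs (v 0) (a (tl v))‖ ^ 2 = ‖v‖ ^ 2 := by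
      rw [norm_cs_sq, a.norm_map, ← norm_cs_sq, cs_tl]
    exact (sq_eq_sq₀ (norm_nonneg _) (norm_nonneg _)).1 h1

theorem ext_apply (a : O2) (v : E3) : ext a v = cs (v 0) (a (tl v)) := rfl

theorem ext_zero (a : O2) (v : E3) : ext a v 0 = v 0 := rfl

theorem ext_succ (a : O2) (v : E3) (i : Fin Dim.m) :
    ext a v (Fin.succ i) = a (WithLp.toLp 2 fun j => v (Fin.succ j)) i := rfl

theorem ext_one : ext 1 = 1 := by
  ext v i
  change cs (v 0) (tl v) i = v i
  rw [cs_tl]

theorem ext_mul (a b : O2) : ext (a * b) = ext a * ext b := by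
  ext v i
  change cs (v 0) (a (b (tl v))) i = cs ((cs (v 0) (b (tl v))) 0) (a (tl (cs (v 0) (b (tl v))))) i
  rw [tl_cs, cs_zero]

/-- `ext` as a homomorphism -/
def extH : O2 →* O3 where
  toFun := ext
  map_one' := ext_one
  map_mul' := ext_mul

end Vale.Agent.P207.N4.H908
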